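/-
Helper76 — S0175 project, Part II, package HC (uniform continuity of the cost near the contact
triangles), interface-free core: the field `cont` of `TwoShellHyp` for the concrete data, with
the facts of the other packages (CG, RG1, SH-a, HY-a) as explicit hypotheses.

Route: `PhiB (b,t') = rotM (t'-t) (PhiB (b,t))` (rotation equivariance of `bplus`, proved here),
`dM (rotM θ p) p ≤ 2π|θ|‖p.1‖`, the base vertices are bounded (`‖y.1‖ ≤ ‖x.1‖ + dM x y`), all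
contact distances are `≥ 1`, and the model cost is the Prelude cost on `WithLp 2 (MS k)`, so the
generic `Helper82.OT3.cont_of_lipschitz` applies.
-/
import Crest.Agent.Helper32.GeomDefs
import Crest.Agent.Helper82.OT3.Cost

set_option autoImplicit false
open MeasureTheory Set
open scoped ENNReal
open Crest.AnalysisR.OT
open Crest.Agent.Helper32

namespace Crest.Agent.Helper76

variable {k : ℕ}

/-! ### the model distance is the `L²` product distance -/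

theorem dM_eq_norm (p q : MS k) :
    dM p q = ‖WithLp.toLp 2 p - WithLp.toLp 2 q‖ := by
  rw [WithLp.prod_norm_eq_of_L2]
  rfl

theorem pairCostM_eq (s : ℝ) (p q : MS k) :
    pairCostM s p q = pairCost s (WithLp.toLp 2 p) (WithLp.toLp 2 q) := by
  unfold pairCostM pairCost
  rw [dM_eq_norm]

theorem tripleCostM_eq (s : ℝ) (x y z : MS k) :
    tripleCostM s (x, y, z) =
      tripleCost s (WithLp.toLp 2 x, WithLp.toLp 2 y, WithLp.toLp 2 z) := by
  simp only [tripleCostM, tripleCost, pairCostM_eq]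

theorem norm_fst_sub_le_dM (p q : MS k) : ‖p.1 - q.1‖ ≤ dM p q := by
  unfold dM
  apply Real.le_sqrt_of_sq_le
  nlinarith [sq_nonneg ‖p.2 - q.2‖]

/-! ### rotations -/

theorem rotM_exp_norm (t : ℝ) :
    ‖Complex.exp (2 * (Real.pi : ℂ) * (t : ℂ) * Complex.I)‖ = 1 := by
  have h : (2 * (Real.pi : ℂ) * (t : ℂ) * Complex.I) = ((2 * Real.pi * t : ℝ) : ℂ) * Complex.I := by
    push_cast; ring
  rw [h, Complex.norm_exp_ofReal_mul_I]

theorem rotM_fst_norm (t : ℝ) (x : MS k) : ‖(rotM t x).1‖ = ‖x.1‖ := by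
  simp only [rotM, norm_mul, rotM_exp_norm, one_mul]

theorem rotM_add (a b : ℝ) (x : MS k) : rotM (a + b) x = rotM a (rotM b x) := by
  simp only [rotM]
  refine Prod.ext ?_ rfl
  simp only
  rw [← mul_assoc, ← Complex.exp_add]
  congr 2
  push_cast; ring

theorem wA_rotM (s w2 t : ℝ) (x : MS k) : wA s w2 (rotM t x) = wA s w2 x := by
  unfold wA
  rw [rotM_fst_norm]
  rfl

theorem bplus_rotM (s w2 t : ℝ) (x : MS k) : bplus s w2 (rotM t x) = rotM t (bplus s w2 x) := by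
  unfold bplus
  rw [wA_rotM]
  unfold bvert
  rw [rotM_fst_norm]
  simp only [rotM, mul_assoc]

theorem dM_rotM_le (θ : ℝ) (p : MS k) : dM (rotM θ p) p ≤ 2 * Real.pi * |θ| * ‖p.1‖ := by
  have h1 : dM (rotM θ p) p = ‖(rotM θ p).1 - p.1‖ := by
    unfold dM
    have : (rotM θ p).2 - p.2 = 0 := by simp [rotM]
    rw [this]
    simp [Real.sqrt_sq (norm_nonneg _)]
  rw [h1]
  have h2 : (rotM θ p).1 - p.1 =
      (Complex.exp (Complex.I * ((2 * Real.pi * θ : ℝ) : ℂ)) - 1) * p.1 := by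
    simp only [rotM]
    have : (2 * (Real.pi : ℂ) * (θ : ℂ) * Complex.I) = Complex.I * ((2 * Real.pi * θ : ℝ) : ℂ) := by
      push_cast; ring
    rw [this]; ring
  rw [h2, norm_mul]
  have h3 := Real.norm_exp_I_mul_ofReal_sub_one_le (x := 2 * Real.pi * θ)
  have h4 : ‖(2 * Real.pi * θ : ℝ)‖ = 2 * Real.pi * |θ| := by
    rw [Real.norm_eq_abs, abs_mul, abs_of_pos (by positivity : (0:ℝ) < 2 * Real.pi)]
  rw [h4] at h3
  exact mul_le_mul_of_nonneg_right h3 (norm_nonneg _)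

theorem PhiB_rot (s w2 ε : ℝ) (b : ↥(Ybase k ε)) (t t' : ℝ) :
    PhiB s w2 ε (b, t') = rotM (t' - t) (PhiB s w2 ε (b, t)) := by
  unfold PhiB PhiA
  simp only
  rw [bplus_rotM, bplus_rotM, ← rotM_add]
  congr 1
  ring

/-! ### the core statement -/

/-- HC with the facts of the packages SH-a / RG1 / CG / HY-a as hypotheses. -/
theorem geomH_cont_of (s w2 ε : ℝ) (hp : GoodParams s w2 ε)
    (hwMin : 0 < wMin s)
    (hH : ∀ w : ℝ, wMin s < w → 2 * w ^ 2 < 1 → 0 < shH s w)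
    (hL12 : ∀ w : ℝ, 0 < w → 2 * w ^ 2 < 1 → 1 ≤ shL12 s w)
    (hL23 : ∀ w : ℝ, 0 < w → 2 * w ^ 2 < 1 → 1 ≤ shL23 s w)
    (hcg : ∀ (w : ℝ), 0 < w → 2 * w ^ 2 < 1 → ∀ x : MS k, x.1 ≠ 0 →
      shF s w (‖x.1‖ ^ 2) (‖x.2‖ ^ 2) = 0 → 0 ≤ shH s w →
      dM x (bvert s w 1 x) = shL12 s w ∧ dM x (bvert s w (-1) x) = shL12 s w ∧
        dM (bvert s w 1 x) (bvert s w (-1) x) = shL23 s w)
    (hwA : ∀ x : MS k, x ∈ Adom s w2 → wMin s < wA s w2 x ∧ wA s w2 x < w2 ∧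
      shF s (wA s w2 x) (‖x.1‖ ^ 2) (‖x.2‖ ^ 2) = 0)
    (hmem : ∀ p : ↥(Ybase k ε) × ℝ, PhiA ε p ∈ torus ε ∧ PhiA ε p ∈ Adom s w2)
    (hshift : ∀ (b : ↥(Ybase k ε)) (t : ℝ),
      PhiB s w2 ε (b, t + gG s w2 ε b) = bminus s w2 (PhiA ε (b, t)))
    (ε' : ℝ) (hε' : 0 < ε') : ∃ η : ℝ, 0 < η ∧
    ∀ (b : ↥(Ybase k ε)) (t t₁ t₂ : ℝ), |t₁ - t| ≤ η → |t₂ - (t + gG s w2 ε b)| ≤ η →
      tripleCostM s (PhiA ε (b, t), PhiB s w2 ε (b, t₁), PhiB s w2 ε (b, t₂)) ≤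
        tripleCostM s (PhiA ε (b, t), PhiB s w2 ε (b, t), PhiB s w2 ε (b, t + gG s w2 ε b)) +
          ENNReal.ofReal ε' := by
  have hs := hp.hs
  have hP2 : 0 < shP w2 := by unfold shP; linarith [hp.hw2']
  have hw2pos : 0 < w2 := hwMin.trans hp.hw2
  set R : ℝ := 1 + (shP w2) ^ (-(1 / (s + 2))) with hR
  have hRpos : 0 < R := by
    have := Real.rpow_pos_of_pos hP2 (-(1 / (s + 2)))
    rw [hR]; linarith
  -- the contact facts at an apex
  have key : ∀ (b : ↥(Ybase k ε)) (t : ℝ),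
      1 ≤ dM (PhiA ε (b, t)) (PhiB s w2 ε (b, t)) ∧
      1 ≤ dM (PhiA ε (b, t)) (PhiB s w2 ε (b, t + gG s w2 ε b)) ∧
      1 ≤ dM (PhiB s w2 ε (b, t)) (PhiB s w2 ε (b, t + gG s w2 ε b)) ∧
      ‖(PhiB s w2 ε (b, t)).1‖ ≤ R := by
    intro b t
    obtain ⟨hxT, hxA⟩ := hmem (b, t)
    obtain ⟨hw1, hw2, hroot⟩ := hwA _ hxA
    set x : MS k := PhiA ε (b, t) with hx
    set w : ℝ := wA s w2 x with hw
    have hw0 : 0 < w := hwMin.trans hw1
    have hw' : 2 * w ^ 2 < 1 := by nlinarith [hp.hw2']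
    obtain ⟨d1, d2, d3⟩ := hcg w hw0 hw' x hxA.1 hroot (hH w hw1 hw').le
    have e1 : PhiB s w2 ε (b, t) = bvert s w 1 x := rfl
    have e2 : PhiB s w2 ε (b, t + gG s w2 ε b) = bvert s w (-1) x := by
      rw [hshift]; rfl
    rw [e1, e2, d1, d2, d3]
    refine ⟨hL12 w hw0 hw', hL12 w hw0 hw', hL23 w hw0 hw', ?_⟩
    -- the bound
    have hx1 : ‖x.1‖ ≤ 1 := by
      have hT : (‖x.1‖ ^ 2 - 2 * ε) ^ 2 + ‖x.2‖ ^ 2 < ε ^ 2 := hxT
      have h1 : (‖x.1‖ ^ 2 - 2 * ε) ^ 2 < ε ^ 2 := by nlinarith [sq_nonneg ‖x.2‖]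
      have h2 : ‖x.1‖ ^ 2 - 2 * ε < ε := by
        have := abs_lt_of_sq_lt_sq h1 hp.hε.le
        exact (abs_lt.1 this).2
      have h3 : ‖x.1‖ ^ 2 < 1 := by linarith [hp.hε1]
      nlinarith [norm_nonneg x.1]
    have hL : shL12 s w ≤ (shP w2) ^ (-(1 / (s + 2))) := by
      unfold shL12
      apply Real.rpow_le_rpow_of_nonpos hP2
      · unfold shP; nlinarith
      · have : 0 < 1 / (s + 2) := by positivity
        linarith
    have hd := norm_fst_sub_le_dM x (bvert s w 1 x)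
    have hn : ‖(bvert s w 1 x).1‖ ≤ ‖x.1‖ + ‖x.1 - (bvert s w 1 x).1‖ := by
      have := norm_sub_le x.1 (x.1 - (bvert s w 1 x).1)
      simpa using this
    rw [hR]; linarith
  have hK : (0:ℝ) ≤ 2 * Real.pi * R := by positivity
  obtain ⟨η, hη, H⟩ := Crest.Agent.Helper82.OT3.cont_of_lipschitz (E := WithLp 2 (MS k)) hs
    (fun p => WithLp.toLp 2 (PhiA ε p)) (fun p => WithLp.toLp 2 (PhiB s w2 ε p)) (gG s w2 ε)
    1 (2 * Real.pi * R) one_pos hK
    (by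
      intro b t
      obtain ⟨k1, k2, k3, -⟩ := key b t
      simp only [← dM_eq_norm]
      exact ⟨k1, k2, k3⟩)
    (by
      intro b t t'
      simp only [← dM_eq_norm]
      obtain ⟨-, -, -, k4⟩ := key b t'
      rw [PhiB_rot s w2 ε b t' t]
      calc dM (rotM (t - t') (PhiB s w2 ε (b, t'))) (PhiB s w2 ε (b, t'))
          ≤ 2 * Real.pi * |t - t'| * ‖(PhiB s w2 ε (b, t')).1‖ := dM_rotM_le _ _
        _ ≤ 2 * Real.pi * |t - t'| * R :=
            mul_le_mul_of_nonneg_left k4 (by positivity)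
        _ = 2 * Real.pi * R * |t - t'| := by ring)
    ε' hε'
  refine ⟨η, hη, ?_⟩
  intro b t t₁ t₂ h₁ h₂
  rw [tripleCostM_eq, tripleCostM_eq]
  exact H b t t₁ t₂ h₁ h₂

end Crest.Agent.Helper76
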