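/-
Helper76 — S0175 project, Part II: two facts of package HY-a in hypothesis-parametrised form,
proved directly from the definitions (so that HC does not wait on HY-a):

* `PhiA_mem_of`   : the apexes lie in the torus and in `Adom` (needs only `GoodParams`);
* `PhiB_shift_of` : `PhiB (b, t + gG b) = bminus (PhiA (b, t))` (needs `0 < wMin s` and the
  statement of `wA_spec`).
-/
import Crest.Agent.Helper76.Geom.HCCore

set_option autoImplicit false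
open MeasureTheory Set
open scoped ENNReal
open Crest.AnalysisR.OT
open Crest.Agent.Helper32

namespace Crest.Agent.Helper76

variable {k : ℕ}

theorem rotM_zero (x : MS k) : rotM 0 x = x := by
  simp [rotM]

theorem PhiA_eq_rotM (ε : ℝ) (b : ↥(Ybase k ε)) (t : ℝ) :
    PhiA ε (b, t) = rotM t (((b.1.1 : ℝ) : ℂ), b.1.2) := rfl

theorem PhiA_fst_norm (ε : ℝ) (b : ↥(Ybase k ε)) (t : ℝ) : ‖(PhiA ε (b, t)).1‖ = b.1.1 := by
  rw [PhiA_eq_rotM, rotM_fst_norm]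
  simp only [Complex.norm_real, Real.norm_eq_abs]
  exact abs_of_pos b.2.1

theorem PhiA_snd (ε : ℝ) (b : ↥(Ybase k ε)) (t : ℝ) : (PhiA ε (b, t)).2 = b.1.2 := rfl

/-- the apexes lie in the torus, inside the domain of the contact maps -/
theorem PhiA_mem_of (s w2 ε : ℝ) (hp : GoodParams s w2 ε) (p : ↥(Ybase k ε) × ℝ) :
    PhiA ε p ∈ torus ε ∧ PhiA ε p ∈ Adom s w2 := by
  obtain ⟨b, t⟩ := p
  have hb := b.2
  obtain ⟨hr, hT⟩ := hb
  have hn : ‖(PhiA ε (b, t)).1‖ = b.1.1 := PhiA_fst_norm ε b t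
  have h2 : (PhiA ε (b, t)).2 = b.1.2 := PhiA_snd ε b t
  have hε := hp.hε
  have hw2 : 0 < w2 := lt_of_le_of_lt (Real.sqrt_nonneg _) hp.hw2
  refine ⟨?_, ?_, ?_⟩
  · show (‖(PhiA ε (b, t)).1‖ ^ 2 - 2 * ε) ^ 2 + ‖(PhiA ε (b, t)).2‖ ^ 2 < ε ^ 2
    rw [hn, h2]; exact hT
  · intro h0
    rw [h0, norm_zero] at hn
    exact (ne_of_gt hr) hn.symm
  · show shF s w2 (‖(PhiA ε (b, t)).1‖ ^ 2) (‖(PhiA ε (b, t)).2‖ ^ 2) < 0
    rw [hn, h2]
    unfold shF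
    have h1 : (b.1.1 ^ 2 - 2 * ε) ^ 2 < ε ^ 2 := by nlinarith [sq_nonneg ‖b.1.2‖]
    have h3 : b.1.1 ^ 2 - 2 * ε < ε := (abs_lt.1 (abs_lt_of_sq_lt_sq h1 hε.le)).2
    have hζ : b.1.1 ^ 2 ≤ 3 * ε := by linarith
    have he : ‖b.1.2‖ ^ 2 ≤ ε ^ 2 := by nlinarith [sq_nonneg (b.1.1 ^ 2 - 2 * ε)]
    have hA : 0 < 4 * w2 ^ 4 := by positivity
    have hB : 0 < (2 * w2 ^ 2 + 1) ^ 2 := by positivity
    have e1 : b.1.1 ^ 2 / (4 * w2 ^ 4) ≤ 3 * ε / (4 * w2 ^ 4) :=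
      div_le_div_of_nonneg_right hζ hA.le
    have e2 : 4 * ‖b.1.2‖ ^ 2 / (2 * w2 ^ 2 + 1) ^ 2 ≤ 4 * ε ^ 2 / (2 * w2 ^ 2 + 1) ^ 2 :=
      div_le_div_of_nonneg_right (by linarith) hB.le
    have := hp.hdom
    linarith

theorem bvert_rotM (s w σ t : ℝ) (x : MS k) : bvert s w σ (rotM t x) = rotM t (bvert s w σ x) := by
  unfold bvert
  rw [rotM_fst_norm]
  simp only [rotM, mul_assoc]

theorem bminus_rotM (s w2 t : ℝ) (x : MS k) :
    bminus s w2 (rotM t x) = rotM t (bminus s w2 x) := by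
  unfold bminus
  rw [wA_rotM, bvert_rotM]

theorem betaC_norm_neg (s w r : ℝ) : ‖betaC s w (-1) r‖ = ‖betaC s w 1 r‖ := by
  have h : ‖betaC s w (-1) r‖ ^ 2 = ‖betaC s w 1 r‖ ^ 2 := by
    rw [Complex.sq_norm, Complex.sq_norm]
    simp only [betaC, Complex.normSq_apply]
    ring
  exact (sq_eq_sq₀ (norm_nonneg _) (norm_nonneg _)).1 h

theorem betaC_ne_zero (s w σ r : ℝ) (hw : 0 < w) (hw' : 2 * w ^ 2 < 1) : betaC s w σ r ≠ 0 := by
  intro h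
  have hre : (betaC s w σ r).re = 0 := by rw [h]; rfl
  have hP : 0 < shP w := by unfold shP; linarith
  have : (betaC s w σ r).re = -(shP w / (2 * w ^ 2)) := rfl
  rw [this] at hre
  have hpos : 0 < shP w / (2 * w ^ 2) := by positivity
  linarith

/-- the second base vertex -/
theorem PhiB_shift_of (s w2 ε : ℝ) (hp : GoodParams s w2 ε) (hwMin : 0 < wMin s)
    (hwA : ∀ x : MS k, x ∈ Adom s w2 → wMin s < wA s w2 x ∧ wA s w2 x < w2 ∧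
      shF s (wA s w2 x) (‖x.1‖ ^ 2) (‖x.2‖ ^ 2) = 0)
    (b : ↥(Ybase k ε)) (t : ℝ) :
    PhiB s w2 ε (b, t + gG s w2 ε b) = bminus s w2 (PhiA ε (b, t)) := by
  set x₀ : MS k := (((b.1.1 : ℝ) : ℂ), b.1.2) with hx₀
  have hx₀A : x₀ ∈ Adom s w2 := by
    have := (PhiA_mem_of s w2 ε hp (b, 0)).2
    rwa [PhiA_eq_rotM, rotM_zero] at this
  obtain ⟨hw1, hw2, -⟩ := hwA x₀ hx₀A
  set w : ℝ := wA s w2 x₀ with hw
  have hw0 : 0 < w := hwMin.trans hw1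
  have hw2pos : 0 < w2 := hw0.trans hw2
  have hw' : 2 * w ^ 2 < 1 := by nlinarith [hp.hw2']
  have hβ : betaC s w 1 ‖x₀.1‖ ≠ 0 := betaC_ne_zero s w 1 ‖x₀.1‖ hw0 hw'
  -- the unit complex number
  have hω : omegaG s w2 x₀ = betaC s w (-1) ‖x₀.1‖ / betaC s w 1 ‖x₀.1‖ := rfl
  have hωn : ‖omegaG s w2 x₀‖ = 1 := by
    rw [hω, norm_div, betaC_norm_neg]
    exact div_self (norm_ne_zero_iff.2 hβ)
  have hexp : Complex.exp (2 * (Real.pi : ℂ) * ((gG s w2 ε b : ℝ) : ℂ) * Complex.I) =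
      omegaG s w2 x₀ := by
    have h1 : (2 * (Real.pi : ℂ) * ((gG s w2 ε b : ℝ) : ℂ) * Complex.I) =
        ((Complex.arg (omegaG s w2 x₀) : ℝ) : ℂ) * Complex.I := by
      have : gG s w2 ε b = Complex.arg (omegaG s w2 x₀) / (2 * Real.pi) := rfl
      rw [this]
      push_cast
      have hpi : (Real.pi : ℂ) ≠ 0 := by exact_mod_cast Real.pi_ne_zero
      field_simp
    rw [h1]
    have h2 := Complex.norm_mul_exp_arg_mul_I (omegaG s w2 x₀)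
    rw [hωn] at h2
    simpa using h2
  -- reduce to the base point
  have hkey : rotM (gG s w2 ε b) (bplus s w2 x₀) = bminus s w2 x₀ := by
    unfold bplus bminus bvert rotM
    refine Prod.ext ?_ rfl
    simp only
    rw [hexp, hω, ← hw]
    field_simp
  calc PhiB s w2 ε (b, t + gG s w2 ε b)
      = bplus s w2 (rotM (t + gG s w2 ε b) x₀) := rfl
    _ = rotM (t + gG s w2 ε b) (bplus s w2 x₀) := bplus_rotM _ _ _ _
    _ = rotM t (rotM (gG s w2 ε b) (bplus s w2 x₀)) := rotM_add _ _ _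
    _ = rotM t (bminus s w2 x₀) := by rw [hkey]
    _ = bminus s w2 (rotM t x₀) := (bminus_rotM _ _ _ _).symm
    _ = bminus s w2 (PhiA ε (b, t)) := rfl

/-- HC with only the facts of SH-a / RG1 / CG as hypotheses. -/
theorem geomH_cont_of' (s w2 ε : ℝ) (hp : GoodParams s w2 ε)
    (hwMin : 0 < wMin s)
    (hH : ∀ w : ℝ, wMin s < w → 2 * w ^ 2 < 1 → 0 < shH s w)
    (hL12 : ∀ w : ℝ, 0 < w → 2 * w ^ 2 < 1 → 1 ≤ shL12 s w)
    (hL23 : ∀ w : ℝ, 0 < w → 2 * w ^ 2 < 1 → 1 ≤ shL23 s w)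
    (hcg : ∀ (w : ℝ), 0 < w → 2 * w ^ 2 < 1 → ∀ x : MS k, x.1 ≠ 0 →
      shF s w (‖x.1‖ ^ 2) (‖x.2‖ ^ 2) = 0 → 0 ≤ shH s w →
      dM x (bvert s w 1 x) = shL12 s w ∧ dM x (bvert s w (-1) x) = shL12 s w ∧
        dM (bvert s w 1 x) (bvert s w (-1) x) = shL23 s w)
    (hwA : ∀ x : MS k, x ∈ Adom s w2 → wMin s < wA s w2 x ∧ wA s w2 x < w2 ∧
      shF s (wA s w2 x) (‖x.1‖ ^ 2) (‖x.2‖ ^ 2) = 0)
    (ε' : ℝ) (hε' : 0 < ε') : ∃ η : ℝ, 0 < η ∧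
    ∀ (b : ↥(Ybase k ε)) (t t₁ t₂ : ℝ), |t₁ - t| ≤ η → |t₂ - (t + gG s w2 ε b)| ≤ η →
      tripleCostM s (PhiA ε (b, t), PhiB s w2 ε (b, t₁), PhiB s w2 ε (b, t₂)) ≤
        tripleCostM s (PhiA ε (b, t), PhiB s w2 ε (b, t), PhiB s w2 ε (b, t + gG s w2 ε b)) +
          ENNReal.ofReal ε' :=
  geomH_cont_of s w2 ε hp hwMin hH hL12 hL23 hcg hwA (PhiA_mem_of s w2 ε hp)
    (PhiB_shift_of s w2 ε hp hwMin hwA) ε' hε'

end Crest.Agent.Helper76
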