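/-
Helper76 — S0175 project, Part II, package HC: `geomH_cont` (uniform continuity of the model cost
near the contact triangles), statement verbatim from `Helper32.Spec.geomH_cont`.

Inputs (all landed, no Spec import): SH-a (`Helper62.Geom.SHa`), SH-b fallback
(`Helper62.Geom.ShbDeriv`), RG1 core (`Helper62.Geom.RG1Core`), CG (`Helper52.Geom.CG`), and the
core `geomH_cont_of'` of `Helper76.Geom.HCAux`.
-/
import Crest.Agent.Helper76.Geom.HCAux
import Crest.Agent.Helper62.Geom.SHa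
import Crest.Agent.Helper62.Geom.ShbDeriv
import Crest.Agent.Helper62.Geom.RG1Core
import Crest.Agent.Helper52.Geom.CG

set_option autoImplicit false
open MeasureTheory Set
open scoped ENNReal
open Crest.AnalysisR.OT
open Crest.Agent.Helper32

namespace Crest.Agent.Helper76

/-- nonnegativity of the squared height on `[wMin s, 1/√2)` -/
theorem shH_nonneg_of_le (s : ℝ) (hs : 0 < s) (v : ℝ) (hv : wMin s ≤ v) (hv' : 2 * v ^ 2 < 1) :
    0 ≤ shH s v := by
  rcases eq_or_lt_of_le hv with h | h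
  · rw [← h, Crest.Agent.Helper62.SHa.shH_wMin s hs]
  · exact (Crest.Agent.Helper62.SHa.shH_pos s hs v h hv').le

/-- the shape-calculus record consumed by helper62's RG1 core -/
theorem rg1Deps (s : ℝ) (hs : 0 < s) : Crest.Agent.Helper62.RG1Deps s where
  wMin_pos := Crest.Agent.Helper62.SHa.wMin_pos s hs
  wMin_lt := Crest.Agent.Helper62.SHa.wMin_lt s hs
  shH_wMin := Crest.Agent.Helper62.SHa.shH_wMin s hs
  shH_pos := Crest.Agent.Helper62.SHa.shH_pos s hs
  shape_contDiffAt := Crest.Agent.Helper62.SHa.shape_contDiffAt s hs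
  shF_strictAnti := Crest.Agent.Helper62.SHa.shF_strictAnti s hs
  shF_deriv_neg := Crest.Agent.Helper62.SHa.shF_deriv_neg s hs
  shb_strictAnti := Crest.Agent.Helper62.shb_strictAnti_of s hs (Crest.Agent.Helper62.SHa.wMin_pos s hs)
    (shH_nonneg_of_le s hs)
  shb_deriv_neg := Crest.Agent.Helper62.shb_deriv_neg_of' s hs (Crest.Agent.Helper62.SHa.wMin_pos s hs)
    (shH_nonneg_of_le s hs)

section HY
variable {k : ℕ} (s w2 ε : ℝ) (hp : GoodParams s w2 ε)
include hp

/-- the apexes lie in the torus, inside the domain of the contact maps (Spec.PhiA_mem) -/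
theorem PhiA_mem (p : ↥(Ybase k ε) × ℝ) : PhiA ε p ∈ torus ε ∧ PhiA ε p ∈ Adom s w2 :=
  PhiA_mem_of s w2 ε hp p

/-- the second base vertex (Spec.PhiB_shift) -/
theorem PhiB_shift (b : ↥(Ybase k ε)) (t : ℝ) :
    PhiB s w2 ε (b, t + gG s w2 ε b) = bminus s w2 (PhiA ε (b, t)) :=
  PhiB_shift_of s w2 ε hp (Crest.Agent.Helper62.SHa.wMin_pos s hp.hs)
    (Crest.Agent.Helper62.wA_spec_of s w2 (rg1Deps s hp.hs) hp.hw2 hp.hw2') b t

/-- HC : uniform continuity of the cost near the contact triangles (Spec.geomH_cont) -/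
theorem geomH_cont (ε' : ℝ) (hε' : 0 < ε') : ∃ η : ℝ, 0 < η ∧
    ∀ (b : ↥(Ybase k ε)) (t t₁ t₂ : ℝ), |t₁ - t| ≤ η → |t₂ - (t + gG s w2 ε b)| ≤ η →
      tripleCostM s (PhiA ε (b, t), PhiB s w2 ε (b, t₁), PhiB s w2 ε (b, t₂)) ≤
        tripleCostM s (PhiA ε (b, t), PhiB s w2 ε (b, t), PhiB s w2 ε (b, t + gG s w2 ε b)) +
          ENNReal.ofReal ε' :=
  geomH_cont_of' s w2 ε hp (Crest.Agent.Helper62.SHa.wMin_pos s hp.hs)
    (Crest.Agent.Helper62.SHa.shH_pos s hp.hs)
    (Crest.Agent.Helper62.SHa.shL12_ge_one s hp.hs) (Crest.Agent.Helper62.SHa.shL23_ge_one s hp.hs)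
    (fun w hw hw' x hx hroot hH =>
      let h := Crest.Agent.Helper52.contact_geom s hp.hs w hw hw' x hx hroot hH
      ⟨h.1, h.2.1, h.2.2.1⟩)
    (Crest.Agent.Helper62.wA_spec_of s w2 (rg1Deps s hp.hs) hp.hw2 hp.hw2') ε' hε'

end HY

end Crest.Agent.Helper76
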